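import Vale.Agent.P007.Main

open MeasureTheory Filter

namespace Vale.Agent.Results.P007.CompositeDegree

open Vale.Agent.P007

theorem result :
    (∀ n : ℕ, 4 ≤ n → ¬ n.Prime →
      (∀ m : Measure (X n), IsInvariantProb m → ¬ DukeEquidistribution n m) ∧
      ∃ S : ℕ → TorusDatum n, (∀ i, (S i).O = (S i).maximalOrder) ∧
        Tendsto (fun i => (S i).absDisc) atTop atTop ∧
        (∃ U : Set (X n), IsOpen U ∧ U.Nonempty ∧ ∀ i, ∀ B ∈ (S i).packet, Disjoint B U) ∧
        ∀ m : Measure (X n), IsInvariantProb m → ∀ φ : ℕ → ℕ, StrictMono φ →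
          ¬ ConvergesWeaklyTo (fun i => (S (φ i)).packetMeasure) m) ∧
    (∀ (n : ℕ) (S : ℕ → TorusDatum n) (m : Measure (X n)), IsInvariantProb m →
      ConvergesWeaklyTo (fun i => (S i).packetMeasure) m →
      ∀ C : ℝ, ∀ᶠ i in atTop, ∀ α ∈ (S i).O,
        (∀ j, |(S i).σ j α| ≤ C) → ∃ z : ℤ, α = (z : (S i).K)) :=
  main_result

end Vale.Agent.Results.P007.CompositeDegree
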