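import Vale.Agent.P007.Main2

open MeasureTheory Filter

namespace Vale.Agent.Results.P007.CompositeDegreeProb

open Vale.Agent.P007

theorem result :
    (∀ n : ℕ, 4 ≤ n → ¬ n.Prime →
      (∀ m : Measure (X n), IsInvariantProb m → ¬ DukeEquidistribution n m) ∧
      ∃ S : ℕ → TorusDatum n, (∀ i, (S i).O = (S i).maximalOrder) ∧
        (∀ i, (S i).packet.Finite ∧ (S i).packet.Nonempty ∧
          IsProbabilityMeasure (S i).packetMeasure) ∧
        Tendsto (fun i => (S i).absDisc) atTop atTop ∧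
        (∃ U : Set (X n), IsOpen U ∧ U.Nonempty ∧ ∀ i, ∀ B ∈ (S i).packet, Disjoint B U) ∧
        ∀ m : Measure (X n), IsInvariantProb m → ∀ φ : ℕ → ℕ, StrictMono φ →
          ¬ ConvergesWeaklyTo (fun i => (S (φ i)).packetMeasure) m) ∧
    (∀ (n : ℕ) (S : TorusDatum n), S.O = S.maximalOrder →
      S.packet.Finite ∧ S.packet.Nonempty ∧ IsProbabilityMeasure S.packetMeasure) ∧
    (∀ (n : ℕ) (S : ℕ → TorusDatum n) (m : Measure (X n)), IsInvariantProb m →
      ConvergesWeaklyTo (fun i => (S i).packetMeasure) m →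
      ∀ C : ℝ, ∀ᶠ i in atTop, ∀ α ∈ (S i).O,
        (∀ j, |(S i).σ j α| ≤ C) → ∃ z : ℤ, α = (z : (S i).K)) := by
  have hprob : ∀ (n : ℕ) (S : TorusDatum n), S.O = S.maximalOrder →
      S.packet.Finite ∧ S.packet.Nonempty ∧ IsProbabilityMeasure S.packetMeasure :=
    fun _ S hS => ⟨Set.finite_coe_iff.mp (finite_packet S hS), nonempty_packet S hS,
      isProbabilityMeasure_packetMeasure S hS⟩
  refine ⟨fun n hn hnp => ?_, hprob, fun _ S m hm h C => necessary S m hm h C⟩
  obtain ⟨C, S, hS1, hS2, hS3⟩ := exists_sequence n hn hnp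
  have hconv : ∀ m : Measure (X n), IsInvariantProb m → ∀ φ : ℕ → ℕ, StrictMono φ →
      ¬ ConvergesWeaklyTo (fun i => (S (φ i)).packetMeasure) m := by
    intro m hm φ hφ hconv
    obtain ⟨i, hi⟩ := (necessary (fun i => S (φ i)) m hm hconv C).exists
    obtain ⟨α, hα, hαZ, hαC⟩ := hS3 (φ i)
    exact hαZ (hi α hα hαC)
  have htend : Tendsto (fun i => (S i).absDisc) atTop atTop := tendsto_atTop_mono hS2 tendsto_id
  refine ⟨fun m hm hD => hconv m hm id strictMono_id (hD S htend), S, hS1,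
    fun i => hprob n (S i) (hS1 i), htend,
    ⟨goodOpen _ C, isOpen_goodOpen _ C, nonempty_goodOpen _ C, fun i => ?_⟩, hconv⟩
  obtain ⟨α, hα, hαZ, hαC⟩ := hS3 i
  exact disjoint_goodOpen (S i) hα hαZ hαC

end Vale.Agent.Results.P007.CompositeDegreeProb
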